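import Mathlib

open MeasureTheory Set
open scoped ENNReal NNReal

namespace Vale.Agent.Results.P074.OneThirdUpperBound

/-- The ambient Euclidean space `ℝ^d`. -/
abbrev Eu (d : ℕ) := EuclideanSpace ℝ (Fin d)

/-- The uniform probability measure `|K|⁻¹ 1_K dx`. -/
noncomputable def unif {d : ℕ} (K : Set (Eu d)) : Measure (Eu d) :=
  (volume K)⁻¹ • volume.restrict K

/-- The quadratic transport cost `∫ |x - T x|² dρ`. -/
noncomputable def cost {d : ℕ} (ρ : Measure (Eu d)) (T : Eu d → Eu d) : ℝ≥0∞ :=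
  ∫⁻ x, ‖x - T x‖ₑ ^ (2 : ℕ) ∂ρ

/-- `T` is a quadratic optimal transport map from `ρ` to `μ`: a Borel map pushing `ρ` to `μ`
with least quadratic cost among all such Borel maps. -/
def IsOptimalMap {d : ℕ} (ρ μ : Measure (Eu d)) (T : Eu d → Eu d) : Prop :=
  Measurable T ∧ Measure.map T ρ = μ ∧
    ∀ S : Eu d → Eu d, Measurable S → Measure.map S ρ = μ → cost ρ T ≤ cost ρ S

/-- The quadratic Wasserstein distance: the infimum over couplings `π` of `μ, ν` of
`(∫ |y - z|² dπ)^(1/2)`. -/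
noncomputable def W2 {d : ℕ} (μ ν : Measure (Eu d)) : ℝ≥0∞ :=
  (⨅ (π : Measure (Eu d × Eu d)) (_ : π.map Prod.fst = μ ∧ π.map Prod.snd = ν),
      ∫⁻ p, ‖p.1 - p.2‖ₑ ^ (2 : ℕ) ∂π) ^ (1 / 2 : ℝ)

/-- The exponent `α` is admissible in dimension `d`: for every convex body `K` and every nonempty
compact `Y` there is a constant `C` with `‖T_μ - T_ν‖_{L²(ρ)} ≤ C W₂(μ, ν)^α` for all probability
measures `μ, ν` supported in `Y`, where `ρ` is uniform on `K`. -/
def Admissible (d : ℕ) (α : ℝ) : Prop :=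
  ∀ K : Set (Eu d), IsCompact K → Convex ℝ K → (interior K).Nonempty →
  ∀ Y : Set (Eu d), IsCompact Y → Y.Nonempty →
  ∃ C : ℝ≥0, ∀ μ ν : Measure (Eu d), IsProbabilityMeasure μ → IsProbabilityMeasure ν →
    μ Yᶜ = 0 → ν Yᶜ = 0 →
    ∀ Tμ Tν : Eu d → Eu d, IsOptimalMap (unif K) μ Tμ → IsOptimalMap (unif K) ν Tν →
      eLpNorm (fun x => Tμ x - Tν x) 2 (unif K) ≤ (C : ℝ≥0∞) * W2 μ ν ^ α

section Geometry

variable {d : ℕ}

/-- A coordinate box. -/
def box (l u : Fin d → ℝ) : Set (Eu d) := {x | ∀ i, x i ∈ Icc (l i) (u i)}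

lemma measurableSet_box (l u : Fin d → ℝ) : MeasurableSet (box l u) := by
  have : box l u = (fun x : Eu d => x.ofLp) ⁻¹' (Icc l u) := by
    ext x
    simp [box, Set.mem_Icc, Pi.le_def, forall_and]
  rw [this]
  exact (PiLp.volume_preserving_ofLp (Fin d)).measurable measurableSet_Icc

lemma volume_box (l u : Fin d → ℝ) :
    volume (box l u) = ∏ i, ENNReal.ofReal (u i - l i) := by
  have : box l u = (fun x : Eu d => x.ofLp) ⁻¹' (Icc l u) := by
    ext x
    simp [box, Set.mem_Icc, Pi.le_def, forall_and]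
  rw [this, (PiLp.volume_preserving_ofLp (Fin d)).measure_preimage
    measurableSet_Icc.nullMeasurableSet, Real.volume_Icc_pi]

/-- The cube `[-1/2, 1/2]^d`. -/
def cube (d : ℕ) : Set (Eu d) := box (fun _ => -(1 / 2)) (fun _ => 1 / 2)

lemma volume_cube : volume (cube d) = 1 := by
  rw [cube, volume_box]
  apply Finset.prod_eq_one
  intro i _
  norm_num

lemma measurableSet_cube : MeasurableSet (cube d) := measurableSet_box _ _

lemma unif_cube : unif (cube d) = volume.restrict (cube d) := by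
  simp [unif, volume_cube]

instance : IsProbabilityMeasure (unif (cube d)) := by
  rw [unif_cube]
  constructor
  simp [volume_cube]

lemma isClosed_box (l u : Fin d → ℝ) : IsClosed (box l u) := by
  have : box l u = ⋂ i, (fun x : Eu d => x i) ⁻¹' (Icc (l i) (u i)) := by
    ext x
    simp [box]
  rw [this]
  refine isClosed_iInter fun i => ?_
  exact isClosed_Icc.preimage (by fun_prop)

lemma abs_coord_le (x : Eu d) (i : Fin d) : |x i| ≤ ‖x‖ := by
  simpa using PiLp.norm_apply_le x i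

lemma isCompact_cube : IsCompact (cube d) := by
  refine Metric.isCompact_of_isClosed_isBounded (isClosed_box _ _) ?_
  refine (Metric.isBounded_iff_subset_closedBall (0 : Eu d)).2 ⟨Real.sqrt d, ?_⟩
  intro x hx
  rw [mem_closedBall_zero_iff, EuclideanSpace.norm_eq]
  apply Real.sqrt_le_sqrt
  have h1 : ∀ i ∈ Finset.univ, ‖x i‖ ^ 2 ≤ (1 : ℝ) := by
    intro i _
    have := hx i
    rw [Real.norm_eq_abs, sq_abs]
    have h3 := this.1
    have h4 := this.2
    nlinarith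
  calc ∑ i, ‖x i‖ ^ 2 ≤ ∑ _i : Fin d, (1 : ℝ) := Finset.sum_le_sum h1
    _ = d := by simp

lemma convex_cube : Convex ℝ (cube d) := by
  intro x hx y hy a b ha hb hab i
  have h1 := hx i
  have h2 := hy i
  simp only [PiLp.add_apply, PiLp.smul_apply, smul_eq_mul, mem_Icc] at h1 h2 ⊢
  constructor <;> nlinarith [h1.1, h1.2, h2.1, h2.2]

lemma interior_cube_nonempty : (interior (cube d)).Nonempty := by
  refine ⟨0, ?_⟩
  rw [mem_interior]
  refine ⟨Metric.ball 0 (1 / 2), ?_, Metric.isOpen_ball, Metric.mem_ball_self (by norm_num)⟩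
  intro x hx i
  have h1 := abs_coord_le x i
  rw [mem_ball_zero_iff] at hx
  have h2 : |x i| ≤ 1 / 2 := by linarith
  exact abs_le.1 h2

end Geometry

section Maps

variable {d : ℕ} (i0 i1 : Fin d)

/-- The piecewise constant map with a thin middle cell. -/
noncomputable def tmap (Δ s : ℝ) (x : Eu d) : Eu d :=
  if |x i0| ≤ Δ * (s * x i1 + 1 / 2) then EuclideanSpace.single i1 (s * Δ)
  else if 0 < x i0 then EuclideanSpace.single i0 1
  else EuclideanSpace.single i0 (-1)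

lemma tmap_measurable (Δ s : ℝ) : Measurable (tmap i0 i1 Δ s) := by
  unfold tmap
  refine Measurable.ite ?_ measurable_const (Measurable.ite ?_ measurable_const measurable_const)
  · exact measurableSet_le (by fun_prop : Continuous fun x : Eu d => |x i0|).measurable
      (by fun_prop : Continuous fun x : Eu d => Δ * (s * x i1 + 1 / 2)).measurable
  · exact measurableSet_lt measurable_const
      (by fun_prop : Continuous fun x : Eu d => x i0).measurable

/-- The (shifted) potential on the source side. -/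
noncomputable def potA (Δ s : ℝ) (x : Eu d) : ℝ :=
  ‖x‖ ^ 2 - 2 * max |x i0| (Δ * (s * x i1 + 1 / 2)) + 2

/-- The potential on the target side. -/
noncomputable def potB (y : Eu d) : ℝ := ‖y‖ ^ 2 + |y i1|

lemma norm_sub_single_sq (x : Eu d) (i : Fin d) (a : ℝ) :
    ‖x - EuclideanSpace.single i a‖ ^ 2 = ‖x‖ ^ 2 - 2 * (a * x i) + a ^ 2 := by
  rw [norm_sub_sq_real, EuclideanSpace.inner_single_right, PiLp.norm_single]
  simp

lemma potB_single_self (i : Fin d) (a : ℝ) :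
    potB i (EuclideanSpace.single i a : Eu d) = a ^ 2 + |a| := by
  simp [potB, PiLp.norm_single]

lemma potB_single_ne {i j : Fin d} (h : i ≠ j) (a : ℝ) :
    potB j (EuclideanSpace.single i a : Eu d) = a ^ 2 := by
  simp [potB, PiLp.norm_single, h.symm]

/-- The three sites of the target. -/
def sites (Δ s : ℝ) : Set (Eu d) :=
  {EuclideanSpace.single i1 (s * Δ), EuclideanSpace.single i0 1, EuclideanSpace.single i0 (-1)}

lemma tmap_mem_sites (Δ s : ℝ) (x : Eu d) : tmap i0 i1 Δ s x ∈ sites i0 i1 Δ s := by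
  unfold tmap sites
  split_ifs <;> simp

variable {i0 i1}

lemma key_ineq (h01 : i0 ≠ i1) {Δ s : ℝ} (hΔ : 0 < Δ) (hs : |s| = 1) (x : Eu d) {y : Eu d}
    (hy : y ∈ sites i0 i1 Δ s) : potA i0 i1 Δ s x + potB i1 y ≤ ‖x - y‖ ^ 2 + 2 := by
  have h1 := le_max_left |x i0| (Δ * (s * x i1 + 1 / 2))
  have h2 := le_max_right |x i0| (Δ * (s * x i1 + 1 / 2))
  have h3 := le_abs_self (x i0)
  have h4 := neg_abs_le (x i0)
  have hs2 : s ^ 2 = 1 := by rw [← sq_abs, hs]; norm_num
  simp only [sites, mem_insert_iff, mem_singleton_iff] at hy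
  rcases hy with rfl | rfl | rfl
  · rw [potB_single_self, norm_sub_single_sq, abs_mul, hs, abs_of_pos hΔ]
    simp only [potA]
    nlinarith
  · rw [potB_single_ne h01, norm_sub_single_sq]
    simp only [potA]
    nlinarith
  · rw [potB_single_ne h01, norm_sub_single_sq]
    simp only [potA]
    nlinarith

lemma key_eq (h01 : i0 ≠ i1) {Δ s : ℝ} (hΔ : 0 < Δ) (hs : |s| = 1) (x : Eu d) :
    potA i0 i1 Δ s x + potB i1 (tmap i0 i1 Δ s x) = ‖x - tmap i0 i1 Δ s x‖ ^ 2 + 2 := by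
  have hs2 : s ^ 2 = 1 := by rw [← sq_abs, hs]; norm_num
  unfold tmap
  split_ifs with h1 h2
  · rw [potB_single_self, norm_sub_single_sq, abs_mul, hs, abs_of_pos hΔ]
    simp only [potA]
    rw [max_eq_right h1]
    nlinarith
  · rw [potB_single_ne h01, norm_sub_single_sq]
    simp only [potA]
    rw [max_eq_left (le_of_not_ge h1), abs_of_pos h2]
    nlinarith
  · rw [potB_single_ne h01, norm_sub_single_sq]
    simp only [potA]
    rw [max_eq_left (le_of_not_ge h1), abs_of_nonpos (le_of_not_gt h2)]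
    nlinarith

lemma potA_nonneg {Δ s : ℝ} (hΔ : 0 < Δ) (hΔ1 : Δ ≤ 1) (hs : |s| = 1) {x : Eu d}
    (hx : x ∈ cube d) : 0 ≤ potA i0 i1 Δ s x := by
  have h0 := hx i0
  have h1 := hx i1
  have h2 : |x i0| ≤ 1 := by
    rw [abs_le]; constructor <;> linarith [h0.1, h0.2]
  have h3 : s * x i1 ≤ 1 / 2 := by
    have : |s * x i1| ≤ 1 / 2 := by
      rw [abs_mul, hs, one_mul, abs_le]; exact ⟨h1.1, h1.2⟩
    exact (abs_le.1 this).2
  have h4 : Δ * (s * x i1 + 1 / 2) ≤ 1 := by nlinarith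
  have h5 : max |x i0| (Δ * (s * x i1 + 1 / 2)) ≤ 1 := max_le h2 h4
  simp only [potA]
  nlinarith [sq_nonneg ‖x‖]

lemma potB_nonneg (y : Eu d) : 0 ≤ potB i1 y := by
  simp only [potB]
  positivity

lemma enorm_sq_eq (v : Eu d) : ‖v‖ₑ ^ (2 : ℕ) = ENNReal.ofReal (‖v‖ ^ 2) := by
  rw [ENNReal.ofReal_pow (norm_nonneg _), ofReal_norm]

lemma ennreal_key_le (h01 : i0 ≠ i1) {Δ s : ℝ} (hΔ : 0 < Δ) (hΔ1 : Δ ≤ 1) (hs : |s| = 1)
    {x : Eu d} (hx : x ∈ cube d) {y : Eu d} (hy : y ∈ sites i0 i1 Δ s) :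
    ENNReal.ofReal (potA i0 i1 Δ s x) + ENNReal.ofReal (potB i1 y) ≤ ‖x - y‖ₑ ^ (2 : ℕ) + 2 := by
  rw [← ENNReal.ofReal_add (potA_nonneg hΔ hΔ1 hs hx) (potB_nonneg y), enorm_sq_eq]
  have h2 : ENNReal.ofReal (‖x - y‖ ^ 2) + 2 = ENNReal.ofReal (‖x - y‖ ^ 2 + 2) := by
    rw [ENNReal.ofReal_add (by positivity) (by norm_num)]
    simp
  rw [h2]
  exact ENNReal.ofReal_le_ofReal (key_ineq h01 hΔ hs x hy)

lemma ennreal_key_eq (h01 : i0 ≠ i1) {Δ s : ℝ} (hΔ : 0 < Δ) (hΔ1 : Δ ≤ 1) (hs : |s| = 1)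
    {x : Eu d} (hx : x ∈ cube d) :
    ‖x - tmap i0 i1 Δ s x‖ₑ ^ (2 : ℕ) + 2 =
      ENNReal.ofReal (potA i0 i1 Δ s x) + ENNReal.ofReal (potB i1 (tmap i0 i1 Δ s x)) := by
  rw [← ENNReal.ofReal_add (potA_nonneg hΔ hΔ1 hs hx) (potB_nonneg _), enorm_sq_eq]
  have h2 : ENNReal.ofReal (‖x - tmap i0 i1 Δ s x‖ ^ 2) + 2 =
      ENNReal.ofReal (‖x - tmap i0 i1 Δ s x‖ ^ 2 + 2) := by
    rw [ENNReal.ofReal_add (by positivity) (by norm_num)]
    simp
  rw [h2, key_eq h01 hΔ hs x]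

lemma measurable_potA (Δ s : ℝ) : Measurable (potA i0 i1 Δ s : Eu d → ℝ) := by
  have : Continuous (potA i0 i1 Δ s : Eu d → ℝ) := by
    unfold potA
    fun_prop
  exact this.measurable

lemma measurable_potB : Measurable (potB i1 : Eu d → ℝ) := by
  have : Continuous (potB i1 : Eu d → ℝ) := by
    unfold potB
    fun_prop
  exact this.measurable

/-- Weak duality: the thin-cell map is optimal onto its own image measure. -/
lemma tmap_optimal (h01 : i0 ≠ i1) {Δ s : ℝ} (hΔ : 0 < Δ) (hΔ1 : Δ ≤ 1) (hs : |s| = 1)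
    (ρ : Measure (Eu d)) [IsFiniteMeasure ρ] (hρ : ∀ᵐ x ∂ρ, x ∈ cube d) :
    IsOptimalMap ρ (Measure.map (tmap i0 i1 Δ s) ρ) (tmap i0 i1 Δ s) := by
  refine ⟨tmap_measurable i0 i1 Δ s, rfl, fun S hS hSmap => ?_⟩
  set T := tmap i0 i1 Δ s with hT
  have hTm : Measurable T := tmap_measurable i0 i1 Δ s
  set a : Eu d → ℝ≥0∞ := fun x => ENNReal.ofReal (potA i0 i1 Δ s x) with ha
  set b : Eu d → ℝ≥0∞ := fun y => ENNReal.ofReal (potB i1 y) with hb
  have ham : Measurable a := (measurable_potA Δ s).ennreal_ofReal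
  have hbm : Measurable b := measurable_potB.ennreal_ofReal
  -- `S` takes values in the sites almost everywhere
  have hfin : (sites i0 i1 Δ s).Finite := by
    unfold sites
    simp
  have hsitesm : MeasurableSet (sites i0 i1 Δ s) := hfin.measurableSet
  have hSae : ∀ᵐ x ∂ρ, S x ∈ sites i0 i1 Δ s := by
    have h1 : Measure.map S ρ (sites i0 i1 Δ s)ᶜ = 0 := by
      rw [hSmap, Measure.map_apply hTm hsitesm.compl]
      have : T ⁻¹' (sites i0 i1 Δ s)ᶜ = ∅ := by
        ext x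
        simp [hT, tmap_mem_sites]
      rw [this, measure_empty]
    rw [Measure.map_apply hS hsitesm.compl] at h1
    exact measure_eq_zero_iff_ae_notMem.1 h1 |>.mono fun x hx => by simpa using hx
  have hbS : ∫⁻ x, b (S x) ∂ρ = ∫⁻ x, b (T x) ∂ρ := by
    rw [← lintegral_map hbm hS, hSmap, lintegral_map hbm hTm]
  have h2 : cost ρ T + ∫⁻ _, 2 ∂ρ = ∫⁻ x, a x ∂ρ + ∫⁻ x, b (T x) ∂ρ := by
    unfold cost
    rw [← lintegral_add_right _ measurable_const, ← lintegral_add_left ham]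
    refine lintegral_congr_ae ?_
    filter_upwards [hρ] with x hx
    exact ennreal_key_eq h01 hΔ hΔ1 hs hx
  have h3 : ∫⁻ x, a x ∂ρ + ∫⁻ x, b (T x) ∂ρ ≤ cost ρ S + ∫⁻ _, 2 ∂ρ := by
    unfold cost
    rw [← hbS, ← lintegral_add_right _ measurable_const, ← lintegral_add_left ham]
    refine lintegral_mono_ae ?_
    filter_upwards [hρ, hSae] with x hx hSx
    exact ennreal_key_le h01 hΔ hΔ1 hs hx hSx
  have hfin2 : ∫⁻ _ : Eu d, (2 : ℝ≥0∞) ∂ρ ≠ ∞ := by
    rw [lintegral_const]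
    exact ENNReal.mul_ne_top (by norm_num) (measure_ne_top _ _)
  exact (ENNReal.add_le_add_iff_right hfin2).1 (h2.le.trans h3)

end Maps

section Reflection

variable {d : ℕ} {i0 i1 : Fin d}

/-- The reflection flipping the coordinate `i1`. -/
noncomputable def refl1 (i1 : Fin d) : Eu d ≃ₗᵢ[ℝ] Eu d :=
  LinearIsometryEquiv.piLpCongrRight 2
    (fun i => if i = i1 then LinearIsometryEquiv.neg ℝ else LinearIsometryEquiv.refl ℝ ℝ)

lemma refl1_apply (x : Eu d) (i : Fin d) :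
    refl1 i1 x i = if i = i1 then - x i else x i := by
  unfold refl1
  rw [LinearIsometryEquiv.piLpCongrRight_apply]
  by_cases h : i = i1 <;> simp [h]

lemma refl1_single_same (a : ℝ) :
    refl1 i1 (EuclideanSpace.single i1 a : Eu d) = EuclideanSpace.single i1 (-a) := by
  ext i
  rw [refl1_apply]
  by_cases h : i = i1
  · subst h; simp
  · simp [h]

lemma refl1_single_ne (h : i0 ≠ i1) (a : ℝ) :
    refl1 i1 (EuclideanSpace.single i0 a : Eu d) = EuclideanSpace.single i0 a := by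
  ext i
  rw [refl1_apply]
  by_cases h' : i = i1
  · subst h'
    simp [h.symm]
  · simp [h']

lemma tmap_neg (h01 : i0 ≠ i1) (Δ s : ℝ) (x : Eu d) :
    tmap i0 i1 Δ (-s) x = refl1 i1 (tmap i0 i1 Δ s (refl1 i1 x)) := by
  have h0 : refl1 i1 x i0 = x i0 := by rw [refl1_apply]; simp [h01]
  have h1 : refl1 i1 x i1 = - x i1 := by rw [refl1_apply]; simp
  have h2 : s * - x i1 = -s * x i1 := by ring
  unfold tmap
  rw [h0, h1, h2]
  split_ifs
  · rw [refl1_single_same]
    congr 1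
    ring
  · rw [refl1_single_ne h01]
  · rw [refl1_single_ne h01]

lemma refl1_cube : (refl1 i1) ⁻¹' (cube d) = cube d := by
  ext x
  simp only [mem_preimage, cube, box, mem_ofPred_eq]
  refine forall_congr' fun i => ?_
  rw [refl1_apply]
  by_cases h : i = i1
  · simp only [h, if_true, mem_Icc]
    constructor <;> rintro ⟨h1, h2⟩ <;> constructor <;> linarith
  · simp [h]

lemma map_refl1 : Measure.map (refl1 i1) (unif (cube d)) = unif (cube d) := by
  rw [unif_cube]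
  have h := ((refl1 i1).measurePreserving).restrict_preimage (measurableSet_cube (d := d))
  rw [refl1_cube] at h
  exact h.map_eq

lemma refl1_measurable : Measurable (refl1 i1 : Eu d → Eu d) :=
  (refl1 i1).continuous.measurable

/-- The law of the reflected thin cell map is the reflected law. -/
lemma map_tmap_neg (h01 : i0 ≠ i1) (Δ s : ℝ) :
    Measure.map (tmap i0 i1 Δ (-s)) (unif (cube d)) =
      Measure.map (fun x => refl1 i1 (tmap i0 i1 Δ s x)) (unif (cube d)) := by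
  have h1 : (tmap i0 i1 Δ (-s) : Eu d → Eu d) =
      (fun x => refl1 i1 (tmap i0 i1 Δ s x)) ∘ (refl1 i1) := by
    funext x
    exact tmap_neg h01 Δ s x
  have hg : Measurable (fun x => refl1 i1 (tmap i0 i1 Δ s x)) :=
    refl1_measurable.comp (tmap_measurable i0 i1 Δ s)
  rw [h1, ← Measure.map_map hg refl1_measurable, map_refl1]

/-- The box containing the middle cell. -/
def midBox (i0 : Fin d) (Δ : ℝ) : Set (Eu d) :=
  box (fun i => if i = i0 then -Δ else -(1 / 2)) (fun i => if i = i0 then Δ else 1 / 2)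

lemma volume_midBox (i0 : Fin d) {Δ : ℝ} (hΔ : 0 < Δ) :
    volume (midBox i0 Δ) = ENNReal.ofReal (2 * Δ) := by
  rw [midBox, volume_box, Finset.prod_eq_single i0]
  · simp only [if_true]
    congr 1
    ring
  · intro b _ hb
    simp only [hb, if_false]
    norm_num
  · simp

/-- The box on which the two maps differ by at least one. -/
def gapBox (i0 i1 : Fin d) (Δ : ℝ) : Set (Eu d) :=
  box (fun i => if i = i0 then Δ / 3 else if i = i1 then 1 / 4 else -(1 / 2))
    (fun i => if i = i0 then 2 * Δ / 3 else 1 / 2)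

lemma volume_gapBox (h01 : i0 ≠ i1) {Δ : ℝ} (hΔ : 0 < Δ) :
    volume (gapBox i0 i1 Δ) = ENNReal.ofReal (Δ / 12) := by
  rw [gapBox, volume_box, Finset.prod_eq_mul i0 i1 h01]
  · simp only [if_true, h01.symm, if_false]
    rw [← ENNReal.ofReal_mul (by linarith)]
    congr 1
    ring
  · intro c _ hc
    simp only [hc.1, hc.2, if_false]
    norm_num
  · simp
  · simp

lemma gapBox_subset_cube (h01 : i0 ≠ i1) {Δ : ℝ} (hΔ : 0 < Δ) (hΔ1 : Δ ≤ 1 / 2) :
    gapBox i0 i1 Δ ⊆ cube d := by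
  intro x hx i
  have h := hx i
  by_cases h0 : i = i0
  · subst h0
    simp only [if_true, mem_Icc] at h
    constructor <;> linarith [h.1, h.2]
  · by_cases h1 : i = i1
    · subst h1
      simp only [h0, if_false, if_true, mem_Icc] at h
      constructor <;> linarith [h.1, h.2]
    · simpa [h0, h1] using h

lemma measurableSet_gapBox (i0 i1 : Fin d) (Δ : ℝ) : MeasurableSet (gapBox i0 i1 Δ) :=
  measurableSet_box _ _

lemma measurableSet_midBox (i0 : Fin d) (Δ : ℝ) : MeasurableSet (midBox i0 Δ) :=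
  measurableSet_box _ _

/-- On `gapBox` the two maps are one unit apart. -/
lemma one_le_gap (h01 : i0 ≠ i1) {Δ : ℝ} (hΔ : 0 < Δ) {x : Eu d} (hx : x ∈ gapBox i0 i1 Δ) :
    (1 : ℝ≥0∞) ≤ ‖tmap i0 i1 Δ 1 x - tmap i0 i1 Δ (-1) x‖ₑ ^ (2 : ℕ) := by
  have h0 := hx i0
  have h1 := hx i1
  simp only [if_true, h01.symm, if_false, mem_Icc] at h0 h1
  have hpos : 0 < x i0 := by linarith [h0.1, div_pos hΔ (by norm_num : (0 : ℝ) < 3)]
  have ht1 : tmap i0 i1 Δ 1 x = EuclideanSpace.single i1 (1 * Δ) := by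
    unfold tmap
    rw [if_pos]
    rw [abs_of_pos hpos]
    nlinarith [h0.2, h1.1]
  have ht2 : tmap i0 i1 Δ (-1) x = EuclideanSpace.single i0 1 := by
    unfold tmap
    rw [if_neg, if_pos hpos]
    rw [abs_of_pos hpos]
    push Not
    nlinarith [h0.1, h1.1]
  rw [ht1, ht2]
  have h2 : (1 : ℝ) ≤ ‖(EuclideanSpace.single i1 (1 * Δ) - EuclideanSpace.single i0 1 : Eu d)‖ := by
    have h3 := abs_coord_le (EuclideanSpace.single i1 (1 * Δ) - EuclideanSpace.single i0 1 : Eu d) i0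
    simpa [h01, h01.symm] using h3
  rw [enorm_sq_eq]
  have h4 : (1 : ℝ) ≤ ‖(EuclideanSpace.single i1 (1 * Δ) - EuclideanSpace.single i0 1 : Eu d)‖ ^ 2 := by
    nlinarith
  calc (1 : ℝ≥0∞) = ENNReal.ofReal 1 := by simp
    _ ≤ _ := ENNReal.ofReal_le_ofReal h4

/-- Lower bound for the `L²` distance between the two thin-cell maps. -/
lemma lower_bound (h01 : i0 ≠ i1) {Δ : ℝ} (hΔ : 0 < Δ) (hΔ1 : Δ ≤ 1 / 2) :
    ENNReal.ofReal (Δ / 12) ^ (1 / 2 : ℝ) ≤
      eLpNorm (fun x => tmap i0 i1 Δ 1 x - tmap i0 i1 Δ (-1) x) 2 (unif (cube d)) := by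
  rw [eLpNorm_eq_lintegral_rpow_enorm_toReal (by norm_num) (by norm_num)]
  simp only [ENNReal.toReal_ofNat]
  refine ENNReal.rpow_le_rpow ?_ (by norm_num)
  rw [← volume_gapBox h01 hΔ]
  have hsub := gapBox_subset_cube h01 hΔ hΔ1
  have hm := measurableSet_gapBox i0 i1 Δ
  have h1 : volume (gapBox i0 i1 Δ) = unif (cube d) (gapBox i0 i1 Δ) := by
    rw [unif_cube, Measure.restrict_apply hm, inter_eq_left.2 hsub]
  rw [h1, ← lintegral_indicator_one hm]
  refine lintegral_mono fun x => ?_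
  by_cases hx : x ∈ gapBox i0 i1 Δ
  · simp only [indicator_of_mem hx, Pi.one_apply]
    have := one_le_gap h01 hΔ hx
    rw [ENNReal.rpow_two]
    exact this
  · simp [indicator_of_notMem hx]

/-- Upper bound for the Wasserstein distance between the two target measures. -/
lemma upper_bound (h01 : i0 ≠ i1) {Δ : ℝ} (hΔ : 0 < Δ) (hΔ1 : Δ ≤ 1 / 2) :
    W2 (Measure.map (tmap i0 i1 Δ 1) (unif (cube d)))
        (Measure.map (tmap i0 i1 Δ (-1)) (unif (cube d))) ≤
      ENNReal.ofReal (8 * Δ ^ 3) ^ (1 / 2 : ℝ) := by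
  set ρ := unif (cube d) with hρ
  set T := tmap i0 i1 Δ 1 with hT
  have hTm : Measurable T := tmap_measurable i0 i1 Δ 1
  have hRm : Measurable (refl1 i1 : Eu d → Eu d) := refl1_measurable
  have hpm : Measurable (fun x => (T x, refl1 i1 (T x))) := hTm.prodMk (hRm.comp hTm)
  refine ENNReal.rpow_le_rpow ?_ (by norm_num)
  refine iInf₂_le_of_le (Measure.map (fun x => (T x, refl1 i1 (T x))) ρ) ⟨?_, ?_⟩ ?_
  · rw [Measure.map_map measurable_fst hpm]
    rfl
  · rw [Measure.map_map measurable_snd hpm, map_tmap_neg h01 Δ 1]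
    rfl
  · have hmeas : Measurable (fun p : Eu d × Eu d => ‖p.1 - p.2‖ₑ ^ (2 : ℕ)) := by
      have : Continuous (fun p : Eu d × Eu d => ‖p.1 - p.2‖ₑ) := by fun_prop
      exact this.measurable.pow_const 2
    rw [lintegral_map hmeas hpm]
    have hae : ∀ᵐ x ∂ρ, x ∈ cube d := by
      rw [hρ, unif_cube]
      exact ae_restrict_mem measurableSet_cube
    have hpt : ∀ᵐ x ∂ρ, ‖T x - refl1 i1 (T x)‖ₑ ^ (2 : ℕ) ≤
        (midBox i0 Δ).indicator (fun _ => ENNReal.ofReal (4 * Δ ^ 2)) x := by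
      filter_upwards [hae] with x hx
      by_cases hmid : |x i0| ≤ Δ * (1 * x i1 + 1 / 2)
      · have hTx : T x = EuclideanSpace.single i1 (1 * Δ) := by
          simp only [hT, tmap, if_pos hmid]
        have hin : x ∈ midBox i0 Δ := by
          intro i
          by_cases hi : i = i0
          · subst hi
            simp only [if_true, mem_Icc]
            have h2 := (hx i1).2
            have h3 : |x i| ≤ Δ := by nlinarith
            exact abs_le.1 h3
          · simpa [hi] using hx i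
        rw [indicator_of_mem hin, hTx, refl1_single_same, enorm_sq_eq]
        refine ENNReal.ofReal_le_ofReal ?_
        have : (EuclideanSpace.single i1 (1 * Δ) - EuclideanSpace.single i1 (-(1 * Δ)) : Eu d) =
            EuclideanSpace.single i1 (2 * Δ) := by
          ext i
          by_cases hi : i = i1
          · subst hi; simp; ring
          · simp [hi]
        rw [this, PiLp.norm_single]
        simp only [Real.norm_eq_abs, sq_abs]
        nlinarith
      · have h5 : refl1 i1 (T x) = T x := by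
          simp only [hT, tmap, if_neg hmid]
          split_ifs <;> exact refl1_single_ne h01 _
        rw [h5]
        simp
    calc ∫⁻ x, ‖T x - refl1 i1 (T x)‖ₑ ^ (2 : ℕ) ∂ρ
        ≤ ∫⁻ x, (midBox i0 Δ).indicator (fun _ => ENNReal.ofReal (4 * Δ ^ 2)) x ∂ρ :=
          lintegral_mono_ae hpt
      _ = ENNReal.ofReal (4 * Δ ^ 2) * ρ (midBox i0 Δ) := by
          rw [lintegral_indicator (measurableSet_midBox i0 Δ), setLIntegral_const]
      _ ≤ ENNReal.ofReal (4 * Δ ^ 2) * ENNReal.ofReal (2 * Δ) := by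
          gcongr
          rw [hρ, unif_cube, Measure.restrict_apply (measurableSet_midBox i0 Δ),
            ← volume_midBox i0 hΔ]
          exact measure_mono inter_subset_left
      _ = ENNReal.ofReal (8 * Δ ^ 3) := by
          rw [← ENNReal.ofReal_mul (by positivity)]
          congr 1
          ring

/-- The values of the thin cell maps lie in the ball of radius two. -/
lemma map_support (Δ s : ℝ) (hΔ : 0 < Δ) (hΔ1 : Δ ≤ 1 / 2) (hs : |s| = 1) :
    Measure.map (tmap i0 i1 Δ s) (unif (cube d)) (Metric.closedBall (0 : Eu d) 2)ᶜ = 0 := by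
  rw [Measure.map_apply (tmap_measurable i0 i1 Δ s) Metric.isClosed_closedBall.measurableSet.compl]
  have : tmap i0 i1 Δ s ⁻¹' (Metric.closedBall (0 : Eu d) 2)ᶜ = ∅ := by
    ext x
    simp only [mem_preimage, mem_compl_iff, mem_closedBall_zero_iff, mem_empty_iff_false,
      iff_false, not_not]
    unfold tmap
    split_ifs
    · rw [PiLp.norm_single, Real.norm_eq_abs, abs_mul, hs, abs_of_pos hΔ]
      linarith
    · rw [PiLp.norm_single]; norm_num
    · rw [PiLp.norm_single]; norm_num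
  rw [this, measure_empty]

end Reflection

/-- The arithmetic choice of the small parameter. -/
lemma exists_delta (C α : ℝ) (hC : 0 ≤ C) (hα : 1 / 3 < α) :
    ∃ Δ : ℝ, 0 < Δ ∧ Δ ≤ 1 / 2 ∧
      C * ((8 * Δ ^ 3) ^ (1 / 2 : ℝ)) ^ α < (Δ / 12) ^ (1 / 2 : ℝ) := by
  set κ : ℝ := (3 * α - 1) / 2 with hκ
  have hκpos : 0 < κ := by rw [hκ]; linarith
  have hαpos : 0 < α := by linarith
  set A : ℝ := C * (8 : ℝ) ^ (α / 2) * (12 : ℝ) ^ (1 / 2 : ℝ) with hA
  have hA0 : 0 ≤ A := by positivity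
  set B : ℝ := A + 1 with hB
  have hBpos : 0 < B := by linarith
  set Δ : ℝ := min (1 / 2) ((1 / B) ^ (1 / κ)) with hΔdef
  have hΔpos : 0 < Δ := lt_min (by norm_num) (by positivity)
  refine ⟨Δ, hΔpos, min_le_left _ _, ?_⟩
  have hΔκ : Δ ^ κ ≤ 1 / B := by
    have h1 : Δ ≤ (1 / B) ^ (1 / κ) := min_le_right _ _
    calc Δ ^ κ ≤ ((1 / B) ^ (1 / κ)) ^ κ := Real.rpow_le_rpow hΔpos.le h1 hκpos.le
      _ = 1 / B := by
        rw [← Real.rpow_mul (by positivity), one_div_mul_cancel hκpos.ne', Real.rpow_one]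
  have hAκ : A * Δ ^ κ < 1 := by
    have h2 : 0 < Δ ^ κ := by positivity
    calc A * Δ ^ κ < B * Δ ^ κ := by rw [hB]; nlinarith
      _ ≤ B * (1 / B) := by gcongr
      _ = 1 := by field_simp
  have h12 : (0 : ℝ) < (12 : ℝ) ^ (1 / 2 : ℝ) := by positivity
  have h8 : (0 : ℝ) < (8 : ℝ) ^ (α / 2) := by positivity
  have e1 : ((8 * Δ ^ 3) ^ (1 / 2 : ℝ)) ^ α = (8 : ℝ) ^ (α / 2) * (Δ ^ κ * Δ ^ (1 / 2 : ℝ)) := by
    rw [← Real.rpow_mul (by positivity), Real.mul_rpow (by norm_num) (by positivity)]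
    have h3 : (Δ ^ 3 : ℝ) = Δ ^ (3 : ℝ) := by norm_cast
    rw [h3, ← Real.rpow_mul hΔpos.le, ← Real.rpow_add hΔpos]
    congr 2
    · ring
    · rw [hκ]; ring
  have e2 : (Δ / 12) ^ (1 / 2 : ℝ) = Δ ^ (1 / 2 : ℝ) / (12 : ℝ) ^ (1 / 2 : ℝ) := by
    rw [Real.div_rpow hΔpos.le (by norm_num)]
  rw [e1, e2, lt_div_iff₀ h12]
  have h4 : (0 : ℝ) < Δ ^ (1 / 2 : ℝ) := by positivity
  calc C * ((8 : ℝ) ^ (α / 2) * (Δ ^ κ * Δ ^ (1 / 2 : ℝ))) * (12 : ℝ) ^ (1 / 2 : ℝ)
      = (A * Δ ^ κ) * Δ ^ (1 / 2 : ℝ) := by rw [hA]; ring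
    _ < 1 * Δ ^ (1 / 2 : ℝ) := by gcongr
    _ = Δ ^ (1 / 2 : ℝ) := one_mul _

/-- **Main theorem.** In every dimension `d ≥ 2` no exponent `α > 1/3` is admissible; in
particular `α = 1/2` is not admissible, and `α*_d ≤ 1/3`. -/
theorem result (d : ℕ) (hd : 2 ≤ d) (α : ℝ) (hα : 1 / 3 < α) : ¬ Admissible d α := by
  intro hadm
  have hαpos : 0 < α := by linarith
  let i0 : Fin d := ⟨0, by omega⟩
  let i1 : Fin d := ⟨1, by omega⟩
  have h01 : i0 ≠ i1 := by
    intro h
    have := congrArg Fin.val h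
    simp [i0, i1] at this
  obtain ⟨C, hC⟩ := hadm (cube d) isCompact_cube convex_cube interior_cube_nonempty
    (Metric.closedBall (0 : Eu d) 2) (isCompact_closedBall _ _) ⟨0, by simp⟩
  obtain ⟨Δ, hΔ, hΔ2, hlt⟩ := exists_delta (C : ℝ) α C.2 hα
  have hΔ1 : Δ ≤ 1 := by linarith
  have habs1 : |(1 : ℝ)| = 1 := by norm_num
  have habs2 : |(-1 : ℝ)| = 1 := by norm_num
  have hρ : ∀ᵐ x ∂(unif (cube d)), x ∈ cube d := by
    rw [unif_cube]
    exact ae_restrict_mem measurableSet_cube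
  have hopt1 := tmap_optimal h01 hΔ hΔ1 habs1 (unif (cube d)) hρ
  have hopt2 := tmap_optimal h01 hΔ hΔ1 habs2 (unif (cube d)) hρ
  have hprob1 : IsProbabilityMeasure (Measure.map (tmap i0 i1 Δ 1) (unif (cube d))) :=
    Measure.isProbabilityMeasure_map (tmap_measurable i0 i1 Δ 1).aemeasurable
  have hprob2 : IsProbabilityMeasure (Measure.map (tmap i0 i1 Δ (-1)) (unif (cube d))) :=
    Measure.isProbabilityMeasure_map (tmap_measurable i0 i1 Δ (-1)).aemeasurable
  have hmain := hC _ _ hprob1 hprob2 (map_support Δ 1 hΔ hΔ2 habs1)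
    (map_support Δ (-1) hΔ hΔ2 habs2) _ _ hopt1 hopt2
  have hlow := lower_bound h01 hΔ hΔ2
  have hup := upper_bound h01 hΔ hΔ2
  have h1 : ENNReal.ofReal (Δ / 12) ^ (1 / 2 : ℝ) ≤
      (C : ℝ≥0∞) * (ENNReal.ofReal (8 * Δ ^ 3) ^ (1 / 2 : ℝ)) ^ α := by
    refine hlow.trans (hmain.trans ?_)
    gcongr
  have h2 : ENNReal.ofReal (Δ / 12) ^ (1 / 2 : ℝ) = ENNReal.ofReal ((Δ / 12) ^ (1 / 2 : ℝ)) :=
    ENNReal.ofReal_rpow_of_pos (by positivity)
  have h3 : (C : ℝ≥0∞) * (ENNReal.ofReal (8 * Δ ^ 3) ^ (1 / 2 : ℝ)) ^ α =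
      ENNReal.ofReal ((C : ℝ) * ((8 * Δ ^ 3) ^ (1 / 2 : ℝ)) ^ α) := by
    rw [ENNReal.ofReal_rpow_of_pos (by positivity), ENNReal.ofReal_rpow_of_pos (by positivity),
      ENNReal.ofReal_mul C.coe_nonneg, ENNReal.ofReal_coe_nnreal]
  rw [h2, h3] at h1
  have h4 : (0 : ℝ) ≤ (C : ℝ) * ((8 * Δ ^ 3) ^ (1 / 2 : ℝ)) ^ α := by positivity
  have h5 := (ENNReal.ofReal_le_ofReal_iff h4).1 h1
  linarith

end Vale.Agent.Results.P074.OneThirdUpperBound
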