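import Vale.Agent.P074.ThirdMain
import Vale.Agent.Results.P074.OneThirdUpperBound

open MeasureTheory Set
open scoped ENNReal NNReal

namespace Vale.Agent.Results.P074.ExactExponentThird

open Vale.Agent.P074

/-- **The exact stability exponent.** For every `d ≥ 2`, the largest admissible exponent in `(0, 1]`
exists and equals `1/3`: the exponent `1/3` is admissible, and no exponent above `1/3` is
admissible. Thus `α*_d = 1/3`, the supremum is attained, and `α = 1/2` is not admissible. -/
theorem result (d : ℕ) (hd : 2 ≤ d) :
    IsGreatest {α : ℝ | 0 < α ∧ α ≤ 1 ∧ Admissible d α} (1 / 3) := by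
  refine ⟨⟨by norm_num, by norm_num, admissible_third (by omega)⟩, ?_⟩
  rintro α ⟨_, _, hα⟩
  by_contra hcon
  push Not at hcon
  exact Vale.Agent.Results.P074.OneThirdUpperBound.result d hd α hcon hα

end Vale.Agent.Results.P074.ExactExponentThird
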