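import Vale.Agent.P074.Final

open MeasureTheory Set
open scoped ENNReal NNReal

namespace Vale.Agent.Results.P074.OneQuarterAdmissible

open Vale.Agent.P074

/-- **The exponent `1/4` is admissible**, and even with `W₁` in place of `W₂`: for every convex
body `K ⊂ ℝ^d` and every nonempty compact `Y` there is a constant `C` with
`‖T_μ - T_ν‖_{L²(ρ)} ≤ C W₁(μ, ν)^{1/4}` for all probability measures `μ, ν` supported in `Y` and
all optimal maps `T_μ, T_ν` from the uniform measure `ρ` on `K`. -/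
theorem result (d : ℕ) (hd : 1 ≤ d) :
    Admissible d (1 / 4) ∧
    ∀ K : Set (Eu d), IsCompact K → Convex ℝ K → (interior K).Nonempty →
    ∀ Y : Set (Eu d), IsCompact Y → Y.Nonempty →
    ∃ C : ℝ≥0, ∀ μ ν : Measure (Eu d), IsProbabilityMeasure μ → IsProbabilityMeasure ν →
      μ Yᶜ = 0 → ν Yᶜ = 0 →
      ∀ Tμ Tν : Eu d → Eu d, IsOptimalMap (unif K) μ Tμ → IsOptimalMap (unif K) ν Tν →
        eLpNorm (fun x => Tμ x - Tν x) 2 (unif K) ≤ (C : ℝ≥0∞) * W1 μ ν ^ (1 / 4 : ℝ) := by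
  have hW1 : ∀ K : Set (Eu d), IsCompact K → Convex ℝ K → (interior K).Nonempty →
      ∀ Y : Set (Eu d), IsCompact Y → Y.Nonempty →
      ∃ C : ℝ≥0, ∀ μ ν : Measure (Eu d), IsProbabilityMeasure μ → IsProbabilityMeasure ν →
        μ Yᶜ = 0 → ν Yᶜ = 0 →
        ∀ Tμ Tν : Eu d → Eu d, IsOptimalMap (unif K) μ Tμ → IsOptimalMap (unif K) ν Tν →
          eLpNorm (fun x => Tμ x - Tν x) 2 (unif K) ≤ (C : ℝ≥0∞) * W1 μ ν ^ (1 / 4 : ℝ) :=
    fun K hK hconv hint Y hY hYne => main_W1 hd hK hconv hint hY hYne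
  refine ⟨?_, hW1⟩
  intro K hK hconv hint Y hY hYne
  obtain ⟨C, hC⟩ := hW1 K hK hconv hint Y hY hYne
  refine ⟨C, ?_⟩
  intro μ ν hμ hν hμY hνY Tμ Tν hTμ hTν
  refine (hC μ ν hμ hν hμY hνY Tμ Tν hTμ hTν).trans ?_
  gcongr
  exact W1_le_W2

end Vale.Agent.Results.P074.OneQuarterAdmissible
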