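import Vale.Agent.Results.P074.OneQuarterAdmissible
import Vale.Agent.Results.P074.OneThirdUpperBound

open MeasureTheory Set
open scoped ENNReal NNReal

namespace Vale.Agent.Results.P074.QuarterAndThird

open Vale.Agent.P074

/-- For all `d ≥ 2`: the exponent `1/4` is admissible, even with `W₁` on the right, and no exponent
above `1/3` is admissible. Hence `1/4 ≤ α*_d ≤ 1/3`. -/
theorem result (d : ℕ) (hd : 2 ≤ d) :
    Admissible d (1 / 4) ∧
    (∀ K : Set (Eu d), IsCompact K → Convex ℝ K → (interior K).Nonempty →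
      ∀ Y : Set (Eu d), IsCompact Y → Y.Nonempty →
      ∃ C : ℝ≥0, ∀ μ ν : Measure (Eu d), IsProbabilityMeasure μ → IsProbabilityMeasure ν →
        μ Yᶜ = 0 → ν Yᶜ = 0 →
        ∀ Tμ Tν : Eu d → Eu d, IsOptimalMap (unif K) μ Tμ → IsOptimalMap (unif K) ν Tν →
          eLpNorm (fun x => Tμ x - Tν x) 2 (unif K) ≤ (C : ℝ≥0∞) * W1 μ ν ^ (1 / 4 : ℝ)) ∧
    ∀ α : ℝ, 1 / 3 < α → ¬ Admissible d α := by
  obtain ⟨h1, h2⟩ := Vale.Agent.Results.P074.OneQuarterAdmissible.result d (by omega)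
  refine ⟨h1, h2, ?_⟩
  intro α hα
  exact Vale.Agent.Results.P074.OneThirdUpperBound.result d hd α hα

end Vale.Agent.Results.P074.QuarterAndThird
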